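import Mathlib

/-!
A reflective certificate for polynomial nonnegativity on the orthant.

A polynomial with integer coefficients is given as an expression `PE`.  To show that all of its
coefficients are nonnegative we evaluate it at a single point of the form
`x i = 2 ^ (k * wt i)` (Kronecker substitution), with digits of `k` bits.  The kernel does this with
fast big number arithmetic, and the coefficients can be read off from the digits.
-/

namespace Vale.Agent.Lib.Common.Kron

/-- Polynomial expressions with integer coefficients. -/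
inductive PE where
  | c : ℕ → PE
  | v : ℕ → PE
  | neg : PE → PE
  | add : PE → PE → PE
  | mul : PE → PE → PE
  | pow : PE → ℕ → PE

namespace PE

/-- Value of an expression at a real point. -/
noncomputable def evalR (x : ℕ → ℝ) : PE → ℝ
  | c n => (n : ℝ)
  | v i => x i
  | neg a => - evalR x a
  | add a b => evalR x a + evalR x b
  | mul a b => evalR x a * evalR x b
  | pow a k => evalR x a ^ k

/-- Polynomial denoted by an expression. -/
noncomputable def toMv : PE → MvPolynomial ℕ ℤ
  | c n => MvPolynomial.C (n : ℤ)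
  | v i => MvPolynomial.X i
  | neg a => - toMv a
  | add a b => toMv a + toMv b
  | mul a b => toMv a * toMv b
  | pow a k => toMv a ^ k

/-- Bound for the degree in the variable `i`. -/
def deg (i : ℕ) : PE → ℕ
  | c _ => 0
  | v j => if Nat.beq j i then 1 else 0
  | neg a => deg i a
  | add a b => max (deg i a) (deg i b)
  | mul a b => deg i a + deg i b
  | pow a k => k * deg i a

/-- All variables have index below `n`. -/
def varsLt (n : ℕ) : PE → Bool
  | c _ => true
  | v j => Nat.ble (j + 1) n
  | neg a => varsLt n a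
  | add a b => varsLt n a && varsLt n b
  | mul a b => varsLt n a && varsLt n b
  | pow a _ => varsLt n a

/-- Bound for the sum of the absolute values of the coefficients. -/
def l1b : PE → ℕ
  | c n => n
  | v _ => 1
  | neg a => l1b a
  | add a b => l1b a + l1b b
  | mul a b => l1b a * l1b b
  | pow a k => l1b a ^ k

/-- Product of differences `(a - b) * (c - d)` as a difference. -/
def mulPair (r s : ℕ × ℕ) : ℕ × ℕ := (r.1 * s.1 + r.2 * s.2, r.1 * s.2 + r.2 * s.1)

/-- Powers of a difference. -/
def powPair (r : ℕ × ℕ) : ℕ → ℕ × ℕ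
  | 0 => (1, 0)
  | k + 1 => mulPair r (powPair r k)

/-- Value at a natural point, as a difference of two natural numbers. -/
def pairEval (pt : ℕ → ℕ) : PE → ℕ × ℕ
  | c n => (n, 0)
  | v i => (pt i, 0)
  | neg a => ((pairEval pt a).2, (pairEval pt a).1)
  | add a b => ((pairEval pt a).1 + (pairEval pt b).1, (pairEval pt a).2 + (pairEval pt b).2)
  | mul a b => mulPair (pairEval pt a) (pairEval pt b)
  | pow a k => powPair (pairEval pt a) k

end PE

open PE

/-- Weight of a variable: the product of the radices before it. -/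
def wt : List ℕ → ℕ → ℕ
  | [], _ => 1
  | _ :: _, 0 => 1
  | r :: rs, i + 1 => r * wt rs i

/-- The evaluation point. -/
def pt (k : ℕ) (rad : List ℕ) (i : ℕ) : ℕ := Nat.shiftLeft 1 (k * wt rad i)

/-- A mask with the top bit of each of the `N` digits. -/
def mask (k N : ℕ) : ℕ :=
  2 ^ (k - 1) * ((Nat.shiftLeft 1 (k * N) - 1) / (Nat.shiftLeft 1 k - 1))

/-- The certificate check. -/
def check (e : PE) (k : ℕ) (rad : List ℕ) : Bool :=
  Nat.ble 1 k && varsLt rad.length e
    && (List.range rad.length).all (fun i => Nat.ble (deg i e + 1) (rad.getD i 1))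
    && Nat.ble (l1b e + 1) (2 ^ (k - 1))
    && Nat.ble (pairEval (pt k rad) e).2 (pairEval (pt k rad) e).1
    && Nat.beq (Nat.land ((pairEval (pt k rad) e).1 - (pairEval (pt k rad) e).2) (mask k rad.prod)) 0

/-! ### Semantics -/

theorem toMv_aeval_real (x : ℕ → ℝ) (e : PE) : MvPolynomial.aeval x (toMv e) = evalR x e := by
  induction e with
  | c n => simp [toMv, evalR]
  | v i => simp [toMv, evalR]
  | neg a ih => simp [toMv, evalR, ih]
  | add a b iha ihb => simp [toMv, evalR, iha, ihb]
  | mul a b iha ihb => simp [toMv, evalR, iha, ihb]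
  | pow a k ih => simp [toMv, evalR, ih]

theorem mulPair_sub (r s : ℕ × ℕ) :
    ((mulPair r s).1 : ℤ) - (mulPair r s).2 = ((r.1 : ℤ) - r.2) * ((s.1 : ℤ) - s.2) := by
  unfold mulPair
  push_cast
  ring

theorem powPair_sub (r : ℕ × ℕ) (k : ℕ) :
    ((powPair r k).1 : ℤ) - (powPair r k).2 = ((r.1 : ℤ) - r.2) ^ k := by
  induction k with
  | zero => simp [powPair]
  | succ k ih =>
    rw [powPair, mulPair_sub, ih, pow_succ]
    ring

theorem pairEval_sub (p : ℕ → ℕ) (e : PE) :
    ((pairEval p e).1 : ℤ) - (pairEval p e).2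
      = MvPolynomial.aeval (fun i => (p i : ℤ)) (toMv e) := by
  induction e with
  | c n => simp [toMv, pairEval]
  | v i => simp [toMv, pairEval]
  | neg a ih =>
    simp only [toMv, pairEval, map_neg]
    rw [← ih]
    ring
  | add a b iha ihb =>
    simp only [toMv, pairEval, map_add]
    rw [← iha, ← ihb]
    push_cast
    ring
  | mul a b iha ihb =>
    simp only [toMv, pairEval, map_mul]
    rw [mulPair_sub, iha, ihb]
  | pow a k ih =>
    simp only [toMv, pairEval, map_pow]
    rw [powPair_sub, ih]

/-! ### Degrees -/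

theorem degreeOf_toMv_le (i : ℕ) (e : PE) : MvPolynomial.degreeOf i (toMv e) ≤ deg i e := by
  induction e with
  | c n =>
    simp only [toMv, deg]
    rw [MvPolynomial.degreeOf_C]
  | v j =>
    simp only [toMv, deg]
    by_cases h : j = i
    · subst h
      simp
    · have : Nat.beq j i = false := by
        cases hb : Nat.beq j i with
        | false => rfl
        | true => exact absurd (Nat.eq_of_beq_eq_true hb) h
      rw [this]
      rw [MvPolynomial.degreeOf_X_of_ne (fun h' => h h'.symm)]
      simp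
  | neg a ih =>
    simp only [toMv, deg]
    rw [MvPolynomial.degreeOf_neg]
    exact ih
  | add a b iha ihb =>
    simp only [toMv, deg]
    exact (MvPolynomial.degreeOf_add_le _ _ _).trans (max_le_max iha ihb)
  | mul a b iha ihb =>
    simp only [toMv, deg]
    exact (MvPolynomial.degreeOf_mul_le _ _ _).trans (add_le_add iha ihb)
  | pow a k ih =>
    simp only [toMv, deg]
    exact (MvPolynomial.degreeOf_pow_le _ _ _).trans (Nat.mul_le_mul_left k ih)

theorem deg_eq_zero_of_varsLt {n : ℕ} {e : PE} (h : varsLt n e = true) {i : ℕ} (hi : n ≤ i) :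
    deg i e = 0 := by
  induction e with
  | c m => rfl
  | v j =>
    simp only [varsLt] at h
    have hj : j + 1 ≤ n := Nat.le_of_ble_eq_true h
    have : Nat.beq j i = false := by
      cases hb : Nat.beq j i with
      | false => rfl
      | true =>
        have := Nat.eq_of_beq_eq_true hb
        omega
    simp [deg, this]
  | neg a ih => exact ih h
  | add a b iha ihb =>
    simp only [varsLt, Bool.and_eq_true] at h
    simp [deg, iha h.1, ihb h.2]
  | mul a b iha ihb =>
    simp only [varsLt, Bool.and_eq_true] at h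
    simp [deg, iha h.1, ihb h.2]
  | pow a k ih =>
    simp only [varsLt] at h
    simp [deg, ih h]

/-! ### The sum of the absolute values of the coefficients -/

/-- Sum of the absolute values of the coefficients. -/
noncomputable def l1 (p : MvPolynomial ℕ ℤ) : ℕ := ∑ m ∈ p.support, (MvPolynomial.coeff m p).natAbs

theorem l1_eq_of_subset (p : MvPolynomial ℕ ℤ) {S : Finset (ℕ →₀ ℕ)} (h : p.support ⊆ S) :
    l1 p = ∑ m ∈ S, (MvPolynomial.coeff m p).natAbs := by
  unfold l1
  refine Finset.sum_subset h fun m _ hm => ?_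
  rw [MvPolynomial.notMem_support_iff.1 hm]
  rfl

theorem l1_zero : l1 0 = 0 := by simp [l1]

theorem l1_add_le (p q : MvPolynomial ℕ ℤ) : l1 (p + q) ≤ l1 p + l1 q := by
  classical
  have h1 : (p + q).support ⊆ p.support ∪ q.support := MvPolynomial.support_add
  rw [l1_eq_of_subset (p + q) h1, l1_eq_of_subset p (Finset.subset_union_left),
    l1_eq_of_subset q (Finset.subset_union_right), ← Finset.sum_add_distrib]
  refine Finset.sum_le_sum fun m _ => ?_
  rw [MvPolynomial.coeff_add]
  exact Int.natAbs_add_le _ _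

theorem l1_neg (p : MvPolynomial ℕ ℤ) : l1 (-p) = l1 p := by
  unfold l1
  rw [MvPolynomial.support_neg]
  refine Finset.sum_congr rfl fun m _ => ?_
  rw [MvPolynomial.coeff_neg, Int.natAbs_neg]

theorem l1_monomial_le (m : ℕ →₀ ℕ) (a : ℤ) : l1 (MvPolynomial.monomial m a) ≤ a.natAbs := by
  classical
  by_cases ha : a = 0
  · subst ha
    simp [l1]
  · unfold l1
    rw [MvPolynomial.support_monomial, if_neg ha, Finset.sum_singleton, MvPolynomial.coeff_monomial,
      if_pos rfl]

theorem l1_sum_le {ι : Type*} (s : Finset ι) (f : ι → MvPolynomial ℕ ℤ) :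
    l1 (∑ i ∈ s, f i) ≤ ∑ i ∈ s, l1 (f i) := by
  classical
  induction s using Finset.induction_on with
  | empty => simp [l1_zero]
  | insert a s ha ih =>
    rw [Finset.sum_insert ha, Finset.sum_insert ha]
    exact (l1_add_le _ _).trans (Nat.add_le_add_left ih _)

theorem l1_mul_le (p q : MvPolynomial ℕ ℤ) : l1 (p * q) ≤ l1 p * l1 q := by
  classical
  have hp := MvPolynomial.as_sum p
  have hq := MvPolynomial.as_sum q
  have e : p * q = ∑ a ∈ p.support, ∑ b ∈ q.support,
      MvPolynomial.monomial (a + b) (MvPolynomial.coeff a p * MvPolynomial.coeff b q) := by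
    conv_lhs => rw [hp, hq]
    rw [Finset.sum_mul_sum]
    simp only [MvPolynomial.monomial_mul]
  rw [e]
  refine (l1_sum_le _ _).trans ?_
  unfold l1
  rw [Finset.sum_mul_sum]
  refine Finset.sum_le_sum fun a _ => ?_
  refine (l1_sum_le _ _).trans ?_
  refine Finset.sum_le_sum fun b _ => ?_
  refine (l1_monomial_le _ _).trans ?_
  rw [Int.natAbs_mul]

theorem l1_one : l1 (1 : MvPolynomial ℕ ℤ) ≤ 1 := by
  have := l1_monomial_le 0 (1 : ℤ)
  simpa using this

theorem l1_pow_le (p : MvPolynomial ℕ ℤ) (k : ℕ) : l1 (p ^ k) ≤ l1 p ^ k := by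
  induction k with
  | zero => simpa using l1_one
  | succ k ih =>
    rw [pow_succ, pow_succ]
    exact (l1_mul_le _ _).trans (Nat.mul_le_mul_right _ ih)

theorem l1_toMv_le (e : PE) : l1 (toMv e) ≤ l1b e := by
  induction e with
  | c n =>
    simp only [toMv, l1b]
    have := l1_monomial_le 0 (n : ℤ)
    simpa using this
  | v i =>
    simp only [toMv, l1b]
    have := l1_monomial_le (Finsupp.single i 1) (1 : ℤ)
    simpa [MvPolynomial.X] using this
  | neg a ih =>
    simp only [toMv, l1b]
    rw [l1_neg]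
    exact ih
  | add a b iha ihb =>
    simp only [toMv, l1b]
    exact (l1_add_le _ _).trans (add_le_add iha ihb)
  | mul a b iha ihb =>
    simp only [toMv, l1b]
    exact (l1_mul_le _ _).trans (Nat.mul_le_mul iha ihb)
  | pow a k ih =>
    simp only [toMv, l1b]
    exact (l1_pow_le _ _).trans (Nat.pow_le_pow_left ih k)

/-! ### Digits -/

theorem digits_nonneg (k : ℕ) (hk : 1 ≤ k) : ∀ (N : ℕ) (g : ℕ → ℤ) (V : ℕ),
    (∀ j, |g j| < 2 ^ (k - 1)) →
    ((V : ℤ) = ∑ j ∈ Finset.range N, g j * ((2 ^ k : ℕ) : ℤ) ^ j) →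
    (∀ j, j < N → (V / (2 ^ k) ^ j) % 2 ^ k < 2 ^ (k - 1)) →
    ∀ j, j < N → 0 ≤ g j := by
  intro N
  induction N with
  | zero => intro g V _ _ _ j hj; omega
  | succ N ih =>
    intro g V hg hV hd j hj
    have hB : (2 : ℤ) ^ k = 2 * 2 ^ (k - 1) := by
      obtain ⟨k', rfl⟩ : ∃ k', k = k' + 1 := ⟨k - 1, by omega⟩
      simp [pow_succ]
      ring
    have hB0 : (0 : ℤ) < 2 ^ k := by positivity
    set B : ℤ := ((2 ^ k : ℕ) : ℤ) with hBdef
    have hBe : B = 2 ^ k := by rw [hBdef]; push_cast; ring
    rw [Finset.sum_range_succ'] at hV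
    simp only [pow_zero, mul_one] at hV
    set R : ℤ := ∑ i ∈ Finset.range N, g (i + 1) * B ^ i with hR
    have hsum : ∑ i ∈ Finset.range N, g (i + 1) * B ^ (i + 1) = B * R := by
      rw [hR, Finset.mul_sum]
      refine Finset.sum_congr rfl fun i _ => ?_
      rw [pow_succ]
      ring
    rw [hsum] at hV
    -- the lowest digit
    have hd0 := hd 0 (by omega)
    simp only [pow_zero, Nat.div_one] at hd0
    set d : ℕ := V % 2 ^ k with hd'
    have hVd : (V : ℤ) = d + B * ((V / 2 ^ k : ℕ) : ℤ) := by
      have := Nat.mod_add_div V (2 ^ k)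
      rw [hBdef]
      rw [hd']
      exact_mod_cast this.symm
    have hdiff : (g 0 - d : ℤ) = B * (((V / 2 ^ k : ℕ) : ℤ) - R) := by
      have : (d : ℤ) + B * ((V / 2 ^ k : ℕ) : ℤ) = B * R + g 0 := by rw [← hVd, hV]
      linarith
    have hg0 := abs_lt.1 (hg 0)
    have hdlt : (d : ℤ) < 2 ^ (k - 1) := by exact_mod_cast hd0
    have hd0' : (0 : ℤ) ≤ d := Int.natCast_nonneg d
    have habs : |(g 0 - d : ℤ)| < B := by
      rw [hBe, abs_lt]
      constructor <;> linarith [hg0.1, hg0.2]
    have hzero : ((V / 2 ^ k : ℕ) : ℤ) - R = 0 := by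
      by_contra hne
      have h1 : |B * (((V / 2 ^ k : ℕ) : ℤ) - R)| = B * |((V / 2 ^ k : ℕ) : ℤ) - R| := by
        rw [abs_mul, abs_of_pos (by rw [hBe]; exact hB0)]
      have h2 : 1 ≤ |((V / 2 ^ k : ℕ) : ℤ) - R| := Int.one_le_abs hne
      rw [hdiff, h1] at habs
      have hBpos : 0 < B := by rw [hBe]; exact hB0
      nlinarith
    have hg0eq : g 0 = d := by
      have : (g 0 - d : ℤ) = 0 := by rw [hdiff, hzero, mul_zero]
      linarith
    rcases j with _ | j
    · rw [hg0eq]
      exact hd0'
    · refine ih (fun i => g (i + 1)) (V / 2 ^ k) (fun i => hg _) ?_ ?_ j (by omega)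
      · have : ((V / 2 ^ k : ℕ) : ℤ) = R := by linarith
        rw [this, hR]
      · intro i hi
        have := hd (i + 1) (by omega)
        rw [pow_succ', ← Nat.div_div_eq_div_mul] at this
        exact this

/-- Masks and digits. -/
theorem digit_lt_of_land (k : ℕ) (hk : 1 ≤ k) : ∀ (N V : ℕ),
    Nat.land V (2 ^ (k - 1) * ∑ j ∈ Finset.range N, (2 ^ k) ^ j) = 0 →
    ∀ j, j < N → (V / (2 ^ k) ^ j) % 2 ^ k < 2 ^ (k - 1) := by
  intro N
  induction N with
  | zero => intro V _ j hj; omega
  | succ N ih =>
    intro V hV j hj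
    have hV' : V &&& (2 ^ (k - 1) + 2 ^ k * (2 ^ (k - 1) * ∑ j ∈ Finset.range N, (2 ^ k) ^ j)) = 0 := by
      have e : 2 ^ (k - 1) * ∑ j ∈ Finset.range (N + 1), ((2 : ℕ) ^ k) ^ j
          = 2 ^ (k - 1) + 2 ^ k * (2 ^ (k - 1) * ∑ j ∈ Finset.range N, (2 ^ k) ^ j) := by
        rw [Finset.sum_range_succ', mul_add]
        simp only [pow_zero, mul_one]
        rw [add_comm]
        congr 1
        have : ∑ i ∈ Finset.range N, ((2 : ℕ) ^ k) ^ (i + 1)
            = 2 ^ k * ∑ i ∈ Finset.range N, (2 ^ k) ^ i := by
          rw [Finset.mul_sum]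
          refine Finset.sum_congr rfl fun i _ => ?_
          rw [pow_succ]
          ring
        rw [this]
        ring
      rw [← e]
      exact hV
    set M := 2 ^ (k - 1) * ∑ j ∈ Finset.range N, ((2 : ℕ) ^ k) ^ j with hM
    have hlow : 2 ^ (k - 1) < 2 ^ k := Nat.pow_lt_pow_right (by norm_num) (by omega)
    rcases j with _ | j
    · -- the lowest digit
      simp only [pow_zero, Nat.div_one]
      have h1 : (V &&& (2 ^ (k - 1) + 2 ^ k * M)) % 2 ^ k = 0 := by rw [hV']; simp
      rw [Nat.and_mod_two_pow, Nat.add_mul_mod_self_left, Nat.mod_eq_of_lt hlow, Nat.and_two_pow] at h1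
      have hbit : (V % 2 ^ k).testBit (k - 1) = false := by
        by_contra hb
        have : (V % 2 ^ k).testBit (k - 1) = true := by simpa using hb
        rw [this] at h1
        simp at h1
      have hlt : V % 2 ^ k < 2 ^ k := Nat.mod_lt _ (by positivity)
      by_contra hge
      push Not at hge
      have hdiv : (V % 2 ^ k) / 2 ^ (k - 1) = 1 := by
        have h1 : 1 ≤ (V % 2 ^ k) / 2 ^ (k - 1) := (Nat.one_le_div_iff (by positivity)).2 hge
        have h2 : (V % 2 ^ k) / 2 ^ (k - 1) < 2 := by
          rw [Nat.div_lt_iff_lt_mul (by positivity)]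
          have : 2 * 2 ^ (k - 1) = 2 ^ k := by
            obtain ⟨k', rfl⟩ : ∃ k', k = k' + 1 := ⟨k - 1, by omega⟩
            simp [pow_succ]
            ring
          omega
        omega
      have : (V % 2 ^ k).testBit (k - 1) = true := by
        rw [Nat.testBit_eq_decide_div_mod_eq, hdiv]
        simp
      rw [this] at hbit
      exact absurd hbit (by simp)
    · -- higher digits
      have h2 : (V / 2 ^ k) &&& M = 0 := by
        have h3 : (V &&& (2 ^ (k - 1) + 2 ^ k * M)) / 2 ^ k = 0 := by rw [hV']; simp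
        rw [← Nat.shiftRight_eq_div_pow, Nat.shiftRight_and_distrib, Nat.shiftRight_eq_div_pow,
          Nat.shiftRight_eq_div_pow, Nat.add_mul_div_left _ _ (by positivity),
          Nat.div_eq_of_lt hlow, zero_add] at h3
        exact h3
      have := ih (V / 2 ^ k) h2 j (by omega)
      rw [pow_succ', ← Nat.div_div_eq_div_mul]
      exact this

theorem mask_eq (k N : ℕ) (hk : 1 ≤ k) :
    mask k N = 2 ^ (k - 1) * ∑ j ∈ Finset.range N, (2 ^ k) ^ j := by
  unfold mask
  have h2 : 2 ≤ 2 ^ k := by
    calc 2 = 2 ^ 1 := by norm_num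
      _ ≤ 2 ^ k := Nat.pow_le_pow_right (by norm_num) hk
  rw [Nat.geomSum_eq h2 N]
  congr 2
  · change (1 <<< (k * N)) - 1 = _
    rw [Nat.one_shiftLeft, pow_mul]
  · change (1 <<< k) - 1 = _
    rw [Nat.one_shiftLeft]

/-! ### Positional encoding -/

/-- Positional encoding of an exponent vector. -/
def enc : List ℕ → (ℕ → ℕ) → ℕ
  | [], _ => 0
  | r :: rs, a => a 0 + r * enc rs (fun i => a (i + 1))

theorem enc_eq_sum : ∀ (rad : List ℕ) (a : ℕ → ℕ),
    enc rad a = ∑ i ∈ Finset.range rad.length, a i * wt rad i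
  | [], _ => by simp [enc]
  | r :: rs, a => by
    simp only [enc, List.length_cons]
    rw [Finset.sum_range_succ', enc_eq_sum rs]
    simp only [wt, mul_one]
    rw [add_comm, Finset.mul_sum]
    congr 1
    refine Finset.sum_congr rfl fun i _ => ?_
    ring

theorem enc_lt : ∀ (rad : List ℕ) (a : ℕ → ℕ), (∀ i, i < rad.length → a i < rad.getD i 1) →
    enc rad a < rad.prod
  | [], _, _ => by simp [enc]
  | r :: rs, a, h => by
    simp only [enc, List.prod_cons]
    have h0 : a 0 < r := by simpa using h 0 (by simp)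
    have h1 : enc rs (fun i => a (i + 1)) < rs.prod :=
      enc_lt rs _ fun i hi => by simpa using h (i + 1) (by simpa using hi)
    have h2 : enc rs (fun i => a (i + 1)) + 1 ≤ rs.prod := h1
    calc a 0 + r * enc rs (fun i => a (i + 1)) < r + r * enc rs (fun i => a (i + 1)) := by omega
      _ = r * (enc rs (fun i => a (i + 1)) + 1) := by ring
      _ ≤ r * rs.prod := Nat.mul_le_mul_left _ h2

theorem enc_inj : ∀ (rad : List ℕ) (a b : ℕ → ℕ), (∀ i, i < rad.length → a i < rad.getD i 1) →
    (∀ i, i < rad.length → b i < rad.getD i 1) → enc rad a = enc rad b →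
    ∀ i, i < rad.length → a i = b i
  | [], _, _, _, _, _ => by intro i hi; simp at hi
  | r :: rs, a, b, ha, hb, h => by
    simp only [enc] at h
    have ha0 : a 0 < r := by simpa using ha 0 (by simp)
    have hb0 : b 0 < r := by simpa using hb 0 (by simp)
    have hm : a 0 = b 0 := by
      have := congrArg (· % r) h
      simp only [Nat.add_mul_mod_self_left, Nat.mod_eq_of_lt ha0, Nat.mod_eq_of_lt hb0] at this
      exact this
    have hr : 0 < r := by omega
    have hrest : enc rs (fun i => a (i + 1)) = enc rs (fun i => b (i + 1)) := by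
      rw [hm] at h
      exact Nat.eq_of_mul_eq_mul_left hr (Nat.add_left_cancel h)
    intro i hi
    rcases i with _ | i
    · exact hm
    · exact enc_inj rs _ _ (fun j hj => by simpa using ha (j + 1) (by simpa using hj))
        (fun j hj => by simpa using hb (j + 1) (by simpa using hj)) hrest i (by simpa using hi)

/-! ### The main theorem -/

/-- The check shows that all coefficients are nonnegative. -/
theorem coeff_nonneg_of_check {e : PE} {k : ℕ} {rad : List ℕ} (h : check e k rad = true)
    (m : ℕ →₀ ℕ) : 0 ≤ MvPolynomial.coeff m (toMv e) := by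
  classical
  simp only [check, Bool.and_eq_true, List.all_eq_true, List.mem_range] at h
  obtain ⟨⟨⟨⟨⟨hk, hv⟩, hdeg⟩, hl⟩, hsign⟩, hmask⟩ := h
  have hk' : 1 ≤ k := Nat.le_of_ble_eq_true hk
  have hl' : l1b e + 1 ≤ 2 ^ (k - 1) := Nat.le_of_ble_eq_true hl
  have hsign' : (pairEval (pt k rad) e).2 ≤ (pairEval (pt k rad) e).1 := Nat.le_of_ble_eq_true hsign
  have hmask' := Nat.eq_of_beq_eq_true hmask
  rw [mask_eq k _ hk'] at hmask'
  set p := toMv e with hp
  set V := (pairEval (pt k rad) e).1 - (pairEval (pt k rad) e).2 with hV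
  -- exponents on the support
  have hs1 : ∀ n ∈ p.support, ∀ i, i < rad.length → n i < rad.getD i 1 := by
    intro n hn i hi
    have h1 := MvPolynomial.monomial_le_degreeOf i hn
    have h2 : MvPolynomial.degreeOf i p ≤ deg i e := degreeOf_toMv_le i e
    have h3 : deg i e + 1 ≤ rad.getD i 1 := Nat.le_of_ble_eq_true (hdeg i hi)
    omega
  have hs2 : ∀ n ∈ p.support, ∀ i, rad.length ≤ i → n i = 0 := by
    intro n hn i hi
    have h1 := MvPolynomial.monomial_le_degreeOf i hn
    have h2 : MvPolynomial.degreeOf i p ≤ deg i e := degreeOf_toMv_le i e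
    have h3 := deg_eq_zero_of_varsLt hv hi
    omega
  -- the value at the point
  have hval : (V : ℤ) = ∑ n ∈ p.support, MvPolynomial.coeff n p * ((2 ^ k : ℕ) : ℤ) ^ (enc rad n) := by
    have h1 := pairEval_sub (pt k rad) e
    rw [hV, Nat.cast_sub hsign', h1, MvPolynomial.aeval_def, MvPolynomial.eval₂_eq]
    refine Finset.sum_congr rfl fun n hn => ?_
    congr 1
    have h3 : ∀ i, ((pt k rad i : ℕ) : ℤ) = ((2 ^ k : ℕ) : ℤ) ^ wt rad i := by
      intro i
      unfold pt
      change (((1 <<< (k * wt rad i) : ℕ)) : ℤ) = _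
      rw [Nat.one_shiftLeft, pow_mul]
      push_cast
      ring
    simp only [h3, ← pow_mul]
    rw [Finset.prod_pow_eq_pow_sum, enc_eq_sum]
    congr 1
    have hsub : n.support ⊆ Finset.range rad.length := by
      intro i hi
      rw [Finsupp.mem_support_iff] at hi
      rw [Finset.mem_range]
      by_contra hge
      exact hi (hs2 n hn i (by omega))
    rw [← Finset.sum_subset hsub]
    · refine Finset.sum_congr rfl fun i _ => ?_
      ring
    · intro i _ hi
      rw [Finsupp.notMem_support_iff.1 hi, zero_mul]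
  -- digits
  let g : ℕ → ℤ := fun j => ∑ n ∈ p.support, if enc rad n = j then MvPolynomial.coeff n p else 0
  have hg : ∀ j, |g j| < 2 ^ (k - 1) := by
    intro j
    have h1 : |g j| ≤ ∑ n ∈ p.support, |MvPolynomial.coeff n p| := by
      refine (Finset.abs_sum_le_sum_abs _ _).trans (Finset.sum_le_sum fun n _ => ?_)
      split_ifs
      · exact le_rfl
      · simp
    have h2 : ∑ n ∈ p.support, |MvPolynomial.coeff n p| = (l1 p : ℤ) := by
      unfold l1
      push_cast
      refine Finset.sum_congr rfl fun n _ => ?_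
      rw [Int.abs_eq_natAbs]
    have h3 : l1 p ≤ l1b e := l1_toMv_le e
    have h4 : (l1 p : ℤ) + 1 ≤ 2 ^ (k - 1) := by exact_mod_cast (show l1 p + 1 ≤ 2 ^ (k - 1) by omega)
    rw [h2] at h1
    linarith
  have hsumg : (V : ℤ) = ∑ j ∈ Finset.range rad.prod, g j * ((2 ^ k : ℕ) : ℤ) ^ j := by
    rw [hval]
    simp only [g, Finset.sum_mul]
    rw [Finset.sum_comm]
    refine Finset.sum_congr rfl fun n hn => ?_
    have hlt : enc rad n < rad.prod := enc_lt rad n (hs1 n hn)
    rw [Finset.sum_eq_single (enc rad n)]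
    · simp
    · intro j _ hj
      simp [Ne.symm hj]
    · intro hj
      exact absurd (Finset.mem_range.2 hlt) hj
  have hdig := digit_lt_of_land k hk' rad.prod V hmask'
  have hg0 := digits_nonneg k hk' rad.prod g V hg hsumg hdig
  by_cases hm : m ∈ p.support
  · have hlt : enc rad m < rad.prod := enc_lt rad m (hs1 m hm)
    have h5 := hg0 (enc rad m) hlt
    have h6 : g (enc rad m) = MvPolynomial.coeff m p := by
      simp only [g]
      rw [Finset.sum_eq_single m]
      · simp
      · intro n hn hne
        rw [if_neg]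
        intro heq
        apply hne
        ext i
        by_cases hi : i < rad.length
        · exact enc_inj rad n m (hs1 n hn) (hs1 m hm) heq i hi
        · rw [hs2 n hn i (by omega), hs2 m hm i (by omega)]
      · intro hm'
        exact absurd hm hm'
    rw [← h6]
    exact h5
  · rw [MvPolynomial.notMem_support_iff.1 hm]

/-- Main theorem: a successful check shows that the expression is nonnegative on the orthant. -/
theorem nonneg_of_check {e : PE} {k : ℕ} {rad : List ℕ} (h : check e k rad = true)
    (x : ℕ → ℝ) (hx : ∀ i, 0 ≤ x i) : 0 ≤ evalR x e := by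
  rw [← toMv_aeval_real, MvPolynomial.aeval_def, MvPolynomial.eval₂_eq]
  refine Finset.sum_nonneg fun m _ => mul_nonneg ?_ (Finset.prod_nonneg fun i _ => pow_nonneg (hx i) _)
  have := coeff_nonneg_of_check h m
  simp only [algebraMap_int_eq, eq_intCast]
  exact_mod_cast this

end Vale.Agent.Lib.Common.Kron
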